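import Mathlib
import Vale.Agent.Helper20.P075Model
import Vale.Agent.Helper20.P075Tower

/-!
P075 (dyadic triangular Hilbert form, question Q2): the `L^3` bound with constant `3` for all
real pair tensors, in the finite model of `Vale.Agent.Helper20.P075Model`.

For pair tensors the scale pieces factor over the blocks of two digits.  With `Φ s` the average
of the triangle product of a block over the fibre `a + b + c = s` (four numbers per block, each
bounded by the product of the block `L^3` norms by Hölder), the piece of scale `(i, b)` is the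
product of `Φ 0` over the blocks before `i`, of the full average over the blocks after `i`, and
of a difference of two averages in block `i`.  An elementary inequality for four reals and
an induction on the number of blocks give the constant `3`.
-/

namespace Vale.Agent.Helper19.P075Pair

open Finset Vale.Agent.Helper20.P075

/-- Two binary digits. -/
abbrev B : Type := Fin 2 → ZMod 2

theorem z2_a : ∀ x y : ZMod 2, x + (x + y) = y := by decide
theorem z2_b : ∀ x y z : ZMod 2, y + (x + y + z) + z = x := by decide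
theorem z2_c : ∀ x y z : ZMod 2, x + (x + y + z) + z = y := by decide

theorem B_add_cancel (u s : B) : u + (u + s) = s := by
  funext i
  exact z2_a (u i) (s i)

/-- A sum over two binary digits, written out. -/
theorem sum_B (h : B → ℝ) :
    ∑ s : B, h s = h ![0, 0] + h ![0, 1] + h ![1, 0] + h ![1, 1] := by
  rw [← Equiv.sum_comp (piFinTwoEquiv (fun _ => ZMod 2)).symm h, Fintype.sum_prod_type]
  have h2 : ∀ g : ZMod 2 → ℝ, ∑ x : ZMod 2, g x = g 0 + g 1 := by
    intro g
    exact Fin.sum_univ_two g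
  rw [h2]
  simp only [h2]
  have e : ∀ a b : ZMod 2, (piFinTwoEquiv (fun _ => ZMod 2)).symm (a, b) = ![a, b] := by
    intro a b
    funext i
    fin_cases i <;> rfl
  simp only [e]
  ring

/-- Hölder's inequality for three functions with exponents `(3, 3, 3)`, in averaged form. -/
theorem holder3 {ι : Type} [Fintype ι] (m : ℝ) (hm : 0 < m) (A B C : ι → ℝ) :
    |∑ i, A i * B i * C i| / m ≤
      ((∑ i, |A i| ^ 3) / m) ^ ((1 : ℝ) / 3) * ((∑ i, |B i| ^ 3) / m) ^ ((1 : ℝ) / 3) *
        ((∑ i, |C i| ^ 3) / m) ^ ((1 : ℝ) / 3) := by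
  have cube : ∀ x : ℝ, 0 ≤ x → (x ^ ((1 : ℝ) / 3)) ^ 3 = x := by
    intro x hx
    rw [← Real.rpow_natCast, ← Real.rpow_mul hx]
    norm_num
  have hSA : 0 ≤ (∑ i, |A i| ^ 3) / m := div_nonneg (Finset.sum_nonneg fun i _ => by positivity) hm.le
  have hSB : 0 ≤ (∑ i, |B i| ^ 3) / m := div_nonneg (Finset.sum_nonneg fun i _ => by positivity) hm.le
  have hSC : 0 ≤ (∑ i, |C i| ^ 3) / m := div_nonneg (Finset.sum_nonneg fun i _ => by positivity) hm.le
  set α := ((∑ i, |A i| ^ 3) / m) ^ ((1 : ℝ) / 3) with hα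
  set β := ((∑ i, |B i| ^ 3) / m) ^ ((1 : ℝ) / 3) with hβ
  set γ := ((∑ i, |C i| ^ 3) / m) ^ ((1 : ℝ) / 3) with hγ
  have hα0 : 0 ≤ α := Real.rpow_nonneg hSA _
  have hβ0 : 0 ≤ β := Real.rpow_nonneg hSB _
  have hγ0 : 0 ≤ γ := Real.rpow_nonneg hSC _
  have hα3 : α ^ 3 = (∑ i, |A i| ^ 3) / m := cube _ hSA
  have hβ3 : β ^ 3 = (∑ i, |B i| ^ 3) / m := cube _ hSB
  have hγ3 : γ ^ 3 = (∑ i, |C i| ^ 3) / m := cube _ hSC
  -- a vanishing norm forces a vanishing function
  have zero_of : ∀ (D : ι → ℝ) (δ : ℝ), δ ^ 3 = (∑ i, |D i| ^ 3) / m → δ = 0 → ∀ i, D i = 0 := by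
    intro D δ h3 h0 i
    rw [h0] at h3
    have h4 : (∑ i, |D i| ^ 3) = 0 := by
      have : (∑ i, |D i| ^ 3) / m = 0 := by rw [← h3]; norm_num
      rcases div_eq_zero_iff.mp this with h | h
      · exact h
      · exact absurd h hm.ne'
    have h5 := (Finset.sum_eq_zero_iff_of_nonneg (fun i _ => by positivity)).mp h4 i (Finset.mem_univ i)
    have h6 : |D i| = 0 := by
      have := pow_eq_zero_iff (n := 3) (by norm_num) |>.mp h5
      exact this
    exact abs_eq_zero.mp h6
  by_cases hαz : α = 0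
  · have hA := zero_of A α hα3 hαz
    simp [hA, hαz]
  by_cases hβz : β = 0
  · have hB := zero_of B β hβ3 hβz
    simp [hB, hβz]
  by_cases hγz : γ = 0
  · have hC := zero_of C γ hγ3 hγz
    simp [hC, hγz]
  have hαp : 0 < α := lt_of_le_of_ne hα0 (Ne.symm hαz)
  have hβp : 0 < β := lt_of_le_of_ne hβ0 (Ne.symm hβz)
  have hγp : 0 < γ := lt_of_le_of_ne hγ0 (Ne.symm hγz)
  -- pointwise AM-GM
  have amgm : ∀ x y z : ℝ, 0 ≤ x → 0 ≤ y → 0 ≤ z → x * y * z ≤ (x ^ 3 + y ^ 3 + z ^ 3) / 3 := by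
    intro x y z hx hy hz
    nlinarith [mul_nonneg (add_nonneg (add_nonneg hx hy) hz)
      (add_nonneg (add_nonneg (sq_nonneg (x - y)) (sq_nonneg (y - z))) (sq_nonneg (z - x)))]
  have hpt : ∀ i, |A i * B i * C i| ≤
      α * β * γ * ((|A i| ^ 3 / α ^ 3 + |B i| ^ 3 / β ^ 3 + |C i| ^ 3 / γ ^ 3) / 3) := by
    intro i
    have h1 := amgm (|A i| / α) (|B i| / β) (|C i| / γ) (by positivity) (by positivity)
      (by positivity)
    have h2 : |A i * B i * C i| = α * β * γ * (|A i| / α * (|B i| / β) * (|C i| / γ)) := by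
      rw [abs_mul, abs_mul]
      field_simp
    rw [h2]
    have h3 : (|A i| / α) ^ 3 + (|B i| / β) ^ 3 + (|C i| / γ) ^ 3
        = |A i| ^ 3 / α ^ 3 + |B i| ^ 3 / β ^ 3 + |C i| ^ 3 / γ ^ 3 := by
      rw [div_pow, div_pow, div_pow]
    rw [h3] at h1
    exact mul_le_mul_of_nonneg_left h1 (by positivity)
  have hsum : |∑ i, A i * B i * C i| ≤ α * β * γ * m := by
    calc |∑ i, A i * B i * C i| ≤ ∑ i, |A i * B i * C i| := Finset.abs_sum_le_sum_abs _ _
      _ ≤ ∑ i, α * β * γ * ((|A i| ^ 3 / α ^ 3 + |B i| ^ 3 / β ^ 3 + |C i| ^ 3 / γ ^ 3) / 3) :=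
          Finset.sum_le_sum fun i _ => hpt i
      _ = α * β * γ * (((∑ i, |A i| ^ 3) / α ^ 3 + (∑ i, |B i| ^ 3) / β ^ 3
            + (∑ i, |C i| ^ 3) / γ ^ 3) / 3) := by
          rw [← Finset.mul_sum, ← Finset.sum_div, Finset.sum_add_distrib, Finset.sum_add_distrib,
            Finset.sum_div, Finset.sum_div, Finset.sum_div]
      _ = α * β * γ * m := by
          have e1 : (∑ i, |A i| ^ 3) = α ^ 3 * m := by rw [hα3]; field_simp
          have e2 : (∑ i, |B i| ^ 3) = β ^ 3 * m := by rw [hβ3]; field_simp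
          have e3 : (∑ i, |C i| ^ 3) = γ ^ 3 * m := by rw [hγ3]; field_simp
          rw [e1, e2, e3]
          field_simp
          ring
  rw [div_le_iff₀ hm]
  exact hsum

/-- The elementary inequality behind the constant `3`: four reals of absolute value at most
`n`, read as the fibre averages of one block. -/
theorem four_reals (n x00 x01 x10 x11 : ℝ) (h00 : |x00| ≤ n) (h01 : |x01| ≤ n)
    (h10 : |x10| ≤ n) (h11 : |x11| ≤ n) :
    |(x00 + x01 - x10 - x11) / 4| + |(x00 - x01) / 2| + 3 * |(x00 + x01 + x10 + x11) / 4|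
      ≤ 3 * n := by
  have a := abs_le.mp h00
  have b := abs_le.mp h01
  have c := abs_le.mp h10
  have d := abs_le.mp h11
  rcases abs_cases ((x00 + x01 - x10 - x11) / 4) with ⟨e1, _⟩ | ⟨e1, _⟩ <;>
  rcases abs_cases ((x00 - x01) / 2) with ⟨e2, _⟩ | ⟨e2, _⟩ <;>
  rcases abs_cases ((x00 + x01 + x10 + x11) / 4) with ⟨e3, _⟩ | ⟨e3, _⟩ <;>
  rw [e1, e2, e3] <;> linarith

/-- Induction over the blocks. -/
theorem blocks_sum : ∀ (k : ℕ) (c d v0 v1 n : Fin k → ℝ),
    (∀ i, 0 ≤ c i) → (∀ i, c i ≤ n i) → (∀ i, 0 ≤ d i) → (∀ i, 0 ≤ v0 i) → (∀ i, 0 ≤ v1 i) →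
    (∀ i, v0 i + v1 i + 3 * d i ≤ 3 * n i) →
    ∑ i : Fin k, ((∏ i' : Fin k, (if i' < i then c i' else if i' = i then v0 i' else d i'))
        + (∏ i' : Fin k, (if i' < i then c i' else if i' = i then v1 i' else d i')))
      ≤ 3 * ∏ i, n i := by
  intro k
  induction k with
  | zero =>
    intro c d v0 v1 n _ _ _ _ _ _
    simp
  | succ k ih =>
    intro c d v0 v1 n hc hcn hd hv0 hv1 hv
    have hn : ∀ i, 0 ≤ n i := fun i => le_trans (hc i) (hcn i)
    rw [Fin.sum_univ_castSucc]
    have hterm : ∀ (w : Fin (k + 1) → ℝ) (i0 : Fin k),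
        (∏ i' : Fin (k + 1), (if i' < Fin.castSucc i0 then c i' else
            if i' = Fin.castSucc i0 then w i' else d i'))
          = (∏ i' : Fin k, (if i' < i0 then c (Fin.castSucc i') else
              if i' = i0 then w (Fin.castSucc i') else d (Fin.castSucc i'))) * d (Fin.last k) := by
      intro w i0
      rw [Fin.prod_univ_castSucc]
      have h1 : ¬ (Fin.last k < Fin.castSucc i0) := not_lt.mpr (Fin.le_last _)
      have h2 : Fin.last k ≠ Fin.castSucc i0 := (Fin.castSucc_lt_last i0).ne'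
      rw [if_neg h1, if_neg h2]
      congr 1
      apply Finset.prod_congr rfl
      intro i' _
      simp only [Fin.castSucc_lt_castSucc_iff, Fin.castSucc_inj]
    have hlast : ∀ (w : Fin (k + 1) → ℝ),
        (∏ i' : Fin (k + 1), (if i' < Fin.last k then c i' else
            if i' = Fin.last k then w i' else d i'))
          = (∏ i' : Fin k, c (Fin.castSucc i')) * w (Fin.last k) := by
      intro w
      rw [Fin.prod_univ_castSucc]
      rw [if_neg (lt_irrefl _), if_pos rfl]
      congr 1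
      apply Finset.prod_congr rfl
      intro i' _
      rw [if_pos (Fin.castSucc_lt_last i')]
    simp only [hterm, hlast]
    have hIH := ih (fun i => c (Fin.castSucc i)) (fun i => d (Fin.castSucc i))
      (fun i => v0 (Fin.castSucc i)) (fun i => v1 (Fin.castSucc i)) (fun i => n (Fin.castSucc i))
      (fun i => hc _) (fun i => hcn _) (fun i => hd _) (fun i => hv0 _) (fun i => hv1 _)
      (fun i => hv _)
    have hC : (∏ i' : Fin k, c (Fin.castSucc i')) ≤ ∏ i' : Fin k, n (Fin.castSucc i') :=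
      Finset.prod_le_prod (fun i _ => hc _) (fun i _ => hcn _)
    have hP : 0 ≤ ∏ i' : Fin k, n (Fin.castSucc i') := Finset.prod_nonneg fun i _ => hn _
    rw [Fin.prod_univ_castSucc]
    have hsum : ∑ x : Fin k,
        ((∏ i' : Fin k, (if i' < x then c (Fin.castSucc i') else
              if i' = x then v0 (Fin.castSucc i') else d (Fin.castSucc i'))) * d (Fin.last k) +
          (∏ i' : Fin k, (if i' < x then c (Fin.castSucc i') else
              if i' = x then v1 (Fin.castSucc i') else d (Fin.castSucc i'))) * d (Fin.last k))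
        = (∑ x : Fin k,
        ((∏ i' : Fin k, (if i' < x then c (Fin.castSucc i') else
              if i' = x then v0 (Fin.castSucc i') else d (Fin.castSucc i'))) +
          (∏ i' : Fin k, (if i' < x then c (Fin.castSucc i') else
              if i' = x then v1 (Fin.castSucc i') else d (Fin.castSucc i'))))) * d (Fin.last k) := by
      rw [Finset.sum_mul]
      apply Finset.sum_congr rfl
      intro x _
      ring
    rw [hsum]
    have hdl := hd (Fin.last k)
    have h0l := hv0 (Fin.last k)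
    have h1l := hv1 (Fin.last k)
    have hvl := hv (Fin.last k)
    have e1 := mul_le_mul_of_nonneg_right hIH hdl
    have e2 := mul_le_mul_of_nonneg_right hC (add_nonneg h0l h1l)
    have e3 := mul_le_mul_of_nonneg_left hvl hP
    nlinarith [e1, e2, e3]

/-! ### One block -/

theorem z2_d : ∀ x y z : ZMod 2, (x + y + z) + x + z = y := by decide

/-- Fibre average of the triangle product of one block over the fibre `a + b + c = s`. -/
noncomputable def Phi (p0 p1 p2 : B → B → ℝ) (s : B) : ℝ :=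
  (∑ a : B, ∑ b : B, p0 a b * p1 b (a + b + s) * p2 (a + b + s) a) / 16

/-- The `L^3` norm of a block function (normalised counting measure on the 16 points). -/
noncomputable def nb (p : B → B → ℝ) : ℝ :=
  ((∑ a : B, ∑ b : B, |p a b| ^ 3) / 16) ^ ((1 : ℝ) / 3)

theorem nb_nonneg (p : B → B → ℝ) : 0 ≤ nb p := by
  unfold nb
  apply Real.rpow_nonneg
  apply div_nonneg _ (by norm_num)
  exact Finset.sum_nonneg fun a _ => Finset.sum_nonneg fun b _ => by positivity

/-- `(a, b) ↦ (b, a + b + s)`. -/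
def e1 (s : B) : B × B ≃ B × B where
  toFun x := (x.2, x.1 + x.2 + s)
  invFun y := (y.1 + y.2 + s, y.1)
  left_inv x := by
    apply Prod.ext
    · funext i
      exact z2_b (x.1 i) (x.2 i) (s i)
    · rfl
  right_inv y := by
    apply Prod.ext
    · rfl
    · funext i
      exact z2_d (y.1 i) (y.2 i) (s i)

/-- `(a, b) ↦ (a + b + s, a)`. -/
def e2 (s : B) : B × B ≃ B × B where
  toFun x := (x.1 + x.2 + s, x.1)
  invFun y := (y.2, y.1 + y.2 + s)
  left_inv x := by
    apply Prod.ext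
    · rfl
    · funext i
      exact z2_d (x.1 i) (x.2 i) (s i)
  right_inv y := by
    apply Prod.ext
    · funext i
      exact z2_b (y.1 i) (y.2 i) (s i)
    · rfl

/-- Hölder: every fibre average of a block is bounded by the product of the block norms. -/
theorem Phi_le (p0 p1 p2 : B → B → ℝ) (s : B) : |Phi p0 p1 p2 s| ≤ nb p0 * nb p1 * nb p2 := by
  have h := holder3 (ι := B × B) 16 (by norm_num) (fun x => p0 x.1 x.2)
    (fun x => p1 x.2 (x.1 + x.2 + s)) (fun x => p2 (x.1 + x.2 + s) x.1)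
  have hB : ∑ x : B × B, |p1 x.2 (x.1 + x.2 + s)| ^ 3 = ∑ y : B × B, |p1 y.1 y.2| ^ 3 :=
    Equiv.sum_comp (e1 s) (fun y : B × B => |p1 y.1 y.2| ^ 3)
  have hC : ∑ x : B × B, |p2 (x.1 + x.2 + s) x.1| ^ 3 = ∑ y : B × B, |p2 y.1 y.2| ^ 3 :=
    Equiv.sum_comp (e2 s) (fun y : B × B => |p2 y.1 y.2| ^ 3)
  rw [hB, hC] at h
  simp only [Fintype.sum_prod_type] at h
  unfold Phi nb
  rw [abs_div, abs_of_pos (by norm_num : (0 : ℝ) < 16)]
  exact h

/-- The weighted triple sum of a block in terms of its fibre averages. -/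
theorem blockSum_eq (w : B → ℝ) (p0 p1 p2 : B → B → ℝ) :
    ∑ a : B, ∑ b : B, ∑ c : B, w (a + b + c) * (p0 a b * p1 b c * p2 c a)
      = 16 * ∑ s : B, w s * Phi p0 p1 p2 s := by
  have h1 : ∀ a b : B, ∑ c : B, w (a + b + c) * (p0 a b * p1 b c * p2 c a)
      = ∑ s : B, w s * (p0 a b * p1 b (a + b + s) * p2 (a + b + s) a) := by
    intro a b
    rw [← Equiv.sum_comp (Equiv.addLeft (a + b))
      (fun c => w (a + b + c) * (p0 a b * p1 b c * p2 c a))]
    apply Finset.sum_congr rfl
    intro s _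
    simp only [Equiv.coe_addLeft]
    rw [B_add_cancel]
  simp only [h1]
  have h2 : ∀ a : B, ∑ b : B, ∑ s : B, w s * (p0 a b * p1 b (a + b + s) * p2 (a + b + s) a)
      = ∑ s : B, ∑ b : B, w s * (p0 a b * p1 b (a + b + s) * p2 (a + b + s) a) :=
    fun a => Finset.sum_comm
  simp only [h2]
  rw [Finset.sum_comm, Finset.mul_sum]
  apply Finset.sum_congr rfl
  intro s _
  unfold Phi
  simp only [← Finset.mul_sum]
  ring

/-! ### Factorisation over the blocks -/

/-- The factor of block `i'` in the kernel of scale `(i, b)`. -/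
def kfac (k : ℕ) (i : Fin k) (b : Fin 2) (i' : Fin k) (v : B) : ℝ :=
  (if (i' < i → v 0 = 0 ∧ v 1 = 0) ∧ (i' = i → b = 1 → v 0 = 0) then (1 : ℝ) else 0) *
    (if i' = i then (if v b = 0 then (1 : ℝ) else -1) else 1)

theorem ker_factor (k : ℕ) (i : Fin k) (b : Fin 2) (t : G (k * 2)) :
    ker (k * 2) (finProdFinEquiv (i, b)) t =
      (2 : ℝ) ^ ((finProdFinEquiv (i, b) : Fin (k * 2)) : ℕ) *
        ∏ i' : Fin k, kfac k i b i' (fun b' => t (finProdFinEquiv (i', b'))) := by
  unfold kfac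
  rw [Finset.prod_mul_distrib, Finset.prod_boole, Finset.prod_ite_eq']
  unfold ker sgn
  have hL := lead_iff k i b t
  by_cases hc : Lead (k * 2) ((finProdFinEquiv (i, b) : Fin (k * 2)) : ℕ) t
  · have hc' := hL.mp hc
    rw [if_pos hc, if_pos (fun i' _ => hc' i'), if_pos (Finset.mem_univ i)]
    ring
  · have hc' : ¬ (∀ i' ∈ (Finset.univ : Finset (Fin k)),
        (i' < i → t (finProdFinEquiv (i', 0)) = 0 ∧ t (finProdFinEquiv (i', 1)) = 0)
        ∧ (i' = i → b = 1 → t (finProdFinEquiv (i', 0)) = 0)) := by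
      intro h
      exact hc (hL.mpr (fun i' => h i' (Finset.mem_univ i')))
    rw [if_neg hc, if_neg hc']
    ring

theorem sum3_prod_pairs (k : ℕ) (g : Fin k → B → B → B → ℝ) :
    ∑ x0 : G (k * 2), ∑ x1 : G (k * 2), ∑ x2 : G (k * 2),
        ∏ i : Fin k, g i (fun b => x0 (finProdFinEquiv (i, b)))
          (fun b => x1 (finProdFinEquiv (i, b))) (fun b => x2 (finProdFinEquiv (i, b)))
      = ∏ i : Fin k, ∑ a : B, ∑ b : B, ∑ c : B, g i a b c := by
  have h1 : ∀ x0 x1 : G (k * 2), ∑ x2 : G (k * 2),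
        ∏ i : Fin k, g i (fun b => x0 (finProdFinEquiv (i, b)))
          (fun b => x1 (finProdFinEquiv (i, b))) (fun b => x2 (finProdFinEquiv (i, b)))
      = ∏ i : Fin k, ∑ c : B, g i (fun b => x0 (finProdFinEquiv (i, b)))
          (fun b => x1 (finProdFinEquiv (i, b))) c :=
    fun x0 x1 => sum_prod_pairs k (fun i c => g i (fun b => x0 (finProdFinEquiv (i, b)))
          (fun b => x1 (finProdFinEquiv (i, b))) c)
  simp only [h1]
  have h2 : ∀ x0 : G (k * 2), ∑ x1 : G (k * 2),
        ∏ i : Fin k, ∑ c : B, g i (fun b => x0 (finProdFinEquiv (i, b)))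
          (fun b => x1 (finProdFinEquiv (i, b))) c
      = ∏ i : Fin k, ∑ b' : B, ∑ c : B, g i (fun b => x0 (finProdFinEquiv (i, b))) b' c :=
    fun x0 => sum_prod_pairs k (fun i b' => ∑ c : B, g i (fun b => x0 (finProdFinEquiv (i, b))) b' c)
  simp only [h2]
  exact sum_prod_pairs k (fun i a => ∑ b' : B, ∑ c : B, g i a b' c)

theorem prod_lt_eq (k : ℕ) (i : Fin k) (x y : ℝ) :
    ∏ i' : Fin k, (if i' < i then x else if i' = i then y else 1) = x ^ (i : ℕ) * y := by
  have h1 : ∀ i' : Fin k, (if i' < i then x else if i' = i then y else 1)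
      = (if i' < i then x else 1) * (if i' = i then y else 1) := by
    intro i'
    by_cases h : i' < i
    · have hne : i' ≠ i := ne_of_lt h
      simp [h, hne]
    · simp [h]
  simp only [h1]
  rw [Finset.prod_mul_distrib, Finset.prod_ite_eq', if_pos (Finset.mem_univ i),
    Finset.prod_ite, Finset.prod_const, Finset.prod_const_one, mul_one,
    Finset.filter_gt_eq_Iio, Fin.card_Iio]

/-- The factor of block `i'` in the piece of scale `(i, b)`. -/
noncomputable def pfac (k : ℕ) (f0 f1 f2 : Fin k → B → B → ℝ) (i : Fin k) (b : Fin 2)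
    (i' : Fin k) : ℝ :=
  if i' < i then Phi (f0 i') (f1 i') (f2 i') ![0, 0]
  else if i' = i then
    (if b = 0 then
      (Phi (f0 i') (f1 i') (f2 i') ![0, 0] + Phi (f0 i') (f1 i') (f2 i') ![0, 1]
        - Phi (f0 i') (f1 i') (f2 i') ![1, 0] - Phi (f0 i') (f1 i') (f2 i') ![1, 1]) / 4
    else (Phi (f0 i') (f1 i') (f2 i') ![0, 0] - Phi (f0 i') (f1 i') (f2 i') ![0, 1]) / 2)
  else
    (Phi (f0 i') (f1 i') (f2 i') ![0, 0] + Phi (f0 i') (f1 i') (f2 i') ![0, 1]
      + Phi (f0 i') (f1 i') (f2 i') ![1, 0] + Phi (f0 i') (f1 i') (f2 i') ![1, 1]) / 4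

/-- The normalising constant of block `i'` at scale `(i, b)`. -/
noncomputable def nu (k : ℕ) (i : Fin k) (b : Fin 2) (i' : Fin k) : ℝ :=
  if i' < i then (1 / 4 : ℝ) else if i' = i then (if b = 0 then 1 else 1 / 2) else 1

theorem fin2_ne (b : Fin 2) (h : ¬ b = 0) : b = 1 := by
  rcases fin2_cases b with h1 | h1
  · exact absurd h1 h
  · exact h1

theorem kfac_sum (k : ℕ) (f0 f1 f2 : Fin k → B → B → ℝ) (i : Fin k) (b : Fin 2) (i' : Fin k) :
    16 * ∑ s : B, kfac k i b i' s * Phi (f0 i') (f1 i') (f2 i') s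
      = 64 * (nu k i b i' * pfac k f0 f1 f2 i b i') := by
  rw [sum_B]
  unfold kfac nu pfac
  rcases lt_trichotomy i' i with h | h | h
  · have hne : i' ≠ i := ne_of_lt h
    simp [h, hne]
    ring
  · subst h
    by_cases hb : b = 0
    · subst hb
      simp
      ring
    · have hb1 := fin2_ne b hb
      subst hb1
      simp
      ring
  · have hne : i' ≠ i := ne_of_gt h
    have hnl : ¬ i' < i := not_lt.mpr (le_of_lt h)
    simp [hne, hnl]
    ring

theorem nu_prod (k : ℕ) (i : Fin k) (b : Fin 2) :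
    (2 : ℝ) ^ ((finProdFinEquiv (i, b) : Fin (k * 2)) : ℕ) * ∏ i' : Fin k, nu k i b i' = 1 := by
  unfold nu
  rw [prod_lt_eq]
  have hv : ((finProdFinEquiv (i, b) : Fin (k * 2)) : ℕ) = (b : ℕ) + 2 * (i : ℕ) := by
    simp [finProdFinEquiv_apply_val]
  rw [hv, pow_add, pow_mul]
  have h4 : ((2 : ℝ) ^ 2) ^ (i : ℕ) * (1 / 4 : ℝ) ^ (i : ℕ) = 1 := by
    rw [← mul_pow]
    norm_num
  rcases fin2_cases b with hb | hb
  · subst hb
    simp only [Fin.val_zero, pow_zero, one_mul, if_true, mul_one]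
    exact h4
  · subst hb
    simp only [Fin.val_one, pow_one]
    have : (if (1 : Fin 2) = 0 then (1 : ℝ) else 1 / 2) = 1 / 2 := by simp
    rw [this]
    calc (2 : ℝ) * ((2 : ℝ) ^ 2) ^ (i : ℕ) * ((1 / 4 : ℝ) ^ (i : ℕ) * (1 / 2))
        = ((2 : ℝ) ^ 2) ^ (i : ℕ) * (1 / 4 : ℝ) ^ (i : ℕ) := by ring
      _ = 1 := h4

/-- The piece of scale `(i, b)` of three pair tensors is a product over the blocks. -/
theorem piece_pair (k : ℕ) (f0 f1 f2 : Fin k → B → B → ℝ) (i : Fin k) (b : Fin 2) :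
    piece (k * 2) (finProdFinEquiv (i, b)) (pairTensor k f0) (pairTensor k f1) (pairTensor k f2)
      = ∏ i' : Fin k, pfac k f0 f1 f2 i b i' := by
  unfold piece
  have hA : ∀ x0 x1 x2 : G (k * 2),
      ker (k * 2) (finProdFinEquiv (i, b)) (x0 + x1 + x2) *
        (pairTensor k f0 x0 x1 * pairTensor k f1 x1 x2 * pairTensor k f2 x2 x0)
      = (2 : ℝ) ^ ((finProdFinEquiv (i, b) : Fin (k * 2)) : ℕ) *
        ∏ i' : Fin k, (fun (i' : Fin k) (a b' c : B) =>
            kfac k i b i' (a + b' + c) * (f0 i' a b' * f1 i' b' c * f2 i' c a)) i'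
          (fun b' => x0 (finProdFinEquiv (i', b'))) (fun b' => x1 (finProdFinEquiv (i', b')))
          (fun b' => x2 (finProdFinEquiv (i', b'))) := by
    intro x0 x1 x2
    rw [ker_factor]
    unfold pairTensor
    rw [← Finset.prod_mul_distrib, ← Finset.prod_mul_distrib, mul_assoc,
      ← Finset.prod_mul_distrib]
    rfl
  simp only [hA]
  simp only [← Finset.mul_sum]
  have hS := sum3_prod_pairs k (fun (i' : Fin k) (a b' c : B) =>
    kfac k i b i' (a + b' + c) * (f0 i' a b' * f1 i' b' c * f2 i' c a))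
  beta_reduce at hS
  rw [hS]
  have hC : ∀ i' : Fin k, ∑ a : B, ∑ b' : B, ∑ c : B,
      kfac k i b i' (a + b' + c) * (f0 i' a b' * f1 i' b' c * f2 i' c a)
      = 64 * (nu k i b i' * pfac k f0 f1 f2 i b i') := by
    intro i'
    rw [blockSum_eq (kfac k i b i') (f0 i') (f1 i') (f2 i'), kfac_sum]
  simp only [hC]
  rw [Finset.prod_mul_distrib, Finset.prod_mul_distrib, Finset.prod_const, Finset.card_univ,
    Fintype.card_fin]
  have h64 : (2 : ℝ) ^ (3 * (k * 2)) = (64 : ℝ) ^ k := by
    rw [show 3 * (k * 2) = 6 * k by ring, pow_mul]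
    norm_num
  rw [h64]
  have h0 : (64 : ℝ) ^ k ≠ 0 := by positivity
  have hn := nu_prod k i b
  field_simp
  rw [hn, one_mul]

/-- The `L^3` norm of a pair tensor is the product of the block norms. -/
theorem norm3_pair (k : ℕ) (f : Fin k → B → B → ℝ) :
    norm3 (k * 2) (pairTensor k f) = ∏ i : Fin k, nb (f i) := by
  unfold norm3 pairTensor nb
  have h1 : ∀ x y : G (k * 2),
      |∏ i : Fin k, f i (fun b => x (finProdFinEquiv (i, b))) (fun b => y (finProdFinEquiv (i, b)))| ^ 3
      = ∏ i : Fin k, (fun (i : Fin k) (u v : B) => |f i u v| ^ 3) i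
          (fun b => x (finProdFinEquiv (i, b))) (fun b => y (finProdFinEquiv (i, b))) := by
    intro x y
    rw [Finset.abs_prod, Finset.prod_pow]
  simp only [h1]
  have h2 : ∀ x : G (k * 2), ∑ y : G (k * 2),
      ∏ i : Fin k, |f i (fun b => x (finProdFinEquiv (i, b))) (fun b => y (finProdFinEquiv (i, b)))| ^ 3
      = ∏ i : Fin k, ∑ v : B, |f i (fun b => x (finProdFinEquiv (i, b))) v| ^ 3 :=
    fun x => sum_prod_pairs k (fun i v => |f i (fun b => x (finProdFinEquiv (i, b))) v| ^ 3)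
  simp only [h2]
  have h3 : ∑ x : G (k * 2), ∏ i : Fin k, ∑ v : B, |f i (fun b => x (finProdFinEquiv (i, b))) v| ^ 3
      = ∏ i : Fin k, ∑ u : B, ∑ v : B, |f i u v| ^ 3 :=
    sum_prod_pairs k (fun i u => ∑ v : B, |f i u v| ^ 3)
  rw [h3]
  have h16 : (2 : ℝ) ^ (2 * (k * 2)) = ∏ _i : Fin k, (16 : ℝ) := by
    rw [Finset.prod_const, Finset.card_univ, Fintype.card_fin, show 2 * (k * 2) = 4 * k by ring,
      pow_mul]
    norm_num
  rw [h16, ← Finset.prod_div_distrib]
  rw [Real.finsetProd_rpow]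
  intro i _
  apply div_nonneg _ (by norm_num)
  exact Finset.sum_nonneg fun a _ => Finset.sum_nonneg fun b _ => by positivity

/-- The `L^3` bound with constant `3` for all real pair tensors. -/
theorem pair_bound (k : ℕ) (ε : Fin (k * 2) → ℝ) (hε : ∀ j, |ε j| ≤ 1)
    (f0 f1 f2 : Fin k → B → B → ℝ) :
    |form (k * 2) ε (pairTensor k f0) (pairTensor k f1) (pairTensor k f2)|
      ≤ 3 * (norm3 (k * 2) (pairTensor k f0) * norm3 (k * 2) (pairTensor k f1)
        * norm3 (k * 2) (pairTensor k f2)) := by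
  rw [norm3_pair, norm3_pair, norm3_pair, ← Finset.prod_mul_distrib, ← Finset.prod_mul_distrib]
  unfold form
  have hstep : |∑ j : Fin (k * 2), ε j * piece (k * 2) j (pairTensor k f0) (pairTensor k f1)
        (pairTensor k f2)|
      ≤ ∑ j : Fin (k * 2), |piece (k * 2) j (pairTensor k f0) (pairTensor k f1)
        (pairTensor k f2)| := by
    refine le_trans (Finset.abs_sum_le_sum_abs _ _) (Finset.sum_le_sum fun j _ => ?_)
    rw [abs_mul]
    calc |ε j| * |piece (k * 2) j (pairTensor k f0) (pairTensor k f1) (pairTensor k f2)|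
        ≤ 1 * |piece (k * 2) j (pairTensor k f0) (pairTensor k f1) (pairTensor k f2)| :=
          mul_le_mul_of_nonneg_right (hε j) (abs_nonneg _)
      _ = _ := one_mul _
  refine le_trans hstep ?_
  rw [← Equiv.sum_comp finProdFinEquiv, Fintype.sum_prod_type]
  simp only [Fin.sum_univ_two, piece_pair, Finset.abs_prod]
  -- the four fibre averages of each block
  set P : Fin k → B → ℝ := fun i s => Phi (f0 i) (f1 i) (f2 i) s with hP
  set n : Fin k → ℝ := fun i => nb (f0 i) * nb (f1 i) * nb (f2 i) with hn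
  have hPn : ∀ i s, |P i s| ≤ n i := fun i s => Phi_le (f0 i) (f1 i) (f2 i) s
  have hfour := fun i => four_reals (n i) (P i ![0, 0]) (P i ![0, 1]) (P i ![1, 0]) (P i ![1, 1])
    (hPn i _) (hPn i _) (hPn i _) (hPn i _)
  have hmain := blocks_sum k (fun i => |P i ![0, 0]|)
    (fun i => |(P i ![0, 0] + P i ![0, 1] + P i ![1, 0] + P i ![1, 1]) / 4|)
    (fun i => |(P i ![0, 0] + P i ![0, 1] - P i ![1, 0] - P i ![1, 1]) / 4|)
    (fun i => |(P i ![0, 0] - P i ![0, 1]) / 2|) n
    (fun i => abs_nonneg _) (fun i => hPn i _) (fun i => abs_nonneg _) (fun i => abs_nonneg _)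
    (fun i => abs_nonneg _) (fun i => by have := hfour i; linarith)
  refine le_trans (le_of_eq ?_) hmain
  apply Finset.sum_congr rfl
  intro i _
  congr 1
  · apply Finset.prod_congr rfl
    intro i' _
    unfold pfac
    split_ifs <;> simp_all
  · apply Finset.prod_congr rfl
    intro i' _
    unfold pfac
    split_ifs <;> simp_all

/-- The constant `3` cannot be lowered on the class of pair tensors (towers of helper20). -/
theorem pair_sharp (C : ℝ) (hC : C < 3) :
    ∃ (k : ℕ) (ε : Fin (k * 2) → ℝ) (f0 f1 f2 : Fin k → B → B → ℝ), (∀ j, |ε j| ≤ 1) ∧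
      C * (norm3 (k * 2) (pairTensor k f0) * norm3 (k * 2) (pairTensor k f1)
        * norm3 (k * 2) (pairTensor k f2))
        < |form (k * 2) ε (pairTensor k f0) (pairTensor k f1) (pairTensor k f2)| := by
  have hpos : 0 < 3 - C := by linarith
  obtain ⟨k, hk⟩ := pow_unbounded_of_one_lt (3 / (3 - C)) (by norm_num : (1 : ℝ) < 2)
  refine ⟨k, towerSign k, fun _ => gad, fun _ => gad, fun _ => gad,
    fun j => le_of_eq (towerSign_abs k j), ?_⟩
  have hn : norm3 (k * 2) (pairTensor k (fun _ => gad)) = 1 :=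
    norm3_of_abs_one (k * 2) (tower k) (tower_abs k)
  have hf : form (k * 2) (towerSign k) (pairTensor k (fun _ => gad)) (pairTensor k (fun _ => gad))
      (pairTensor k (fun _ => gad)) = 3 - 3 / (2 : ℝ) ^ k := form_tower k
  rw [hn, hf]
  have h2 : (0 : ℝ) < (2 : ℝ) ^ k := by positivity
  have h3 : 3 / (2 : ℝ) ^ k < 3 - C := by
    rw [div_lt_iff₀ h2]
    rw [div_lt_iff₀ hpos] at hk
    linarith
  have h4 := le_abs_self (3 - 3 / (2 : ℝ) ^ k)
  linarith

end Vale.Agent.Helper19.P075Pair
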