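import Mathlib
import Vale.Agent.Helper20.P075Model
import Vale.Agent.Helper19.P075Pair

/-!
P075 (dyadic triangular Hilbert form, question Q2): the `L^3` bound with constant `2^m - 1` for
all real tensor products over blocks of `m` digits, in the finite model of
`Vale.Agent.Helper20.P075Model`, uniformly in the number of blocks.

For block tensors the scale pieces factor over the blocks.  With `Φ s` the average of the
triangle product of a block over the fibre `a + b + c = s` (`2^m` numbers per block, each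
bounded by the product of the block `L^3` norms by Hölder), the piece of scale `(i, b)` is the
product of `Φ 0` over the blocks before `i`, of the full average of `Φ` over the blocks after
`i`, and of the increment between two consecutive subcube averages of `Φ` in block `i`.  An
elementary inequality for the subcube averages of a bounded function on `(Z/2)^m` (induction
on `m`) and an induction on the number of blocks give the constant `2^m - 1`.
-/

namespace Vale.Agent.Helper19.P075Block

open Finset Vale.Agent.Helper20.P075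

/-- `m` binary digits. -/
abbrev Bm (m : ℕ) : Type := Fin m → ZMod 2

/-! ### The subcube inequality -/

/-- The normalised signed sum of scale `b` of a function on `(Z/2)^m`: `2^b / 2^m` times the
sum of `± x s` over the strings `s` whose first `b` digits vanish, the sign given by digit `b`.
It is the difference of the averages of `x` over two consecutive subcubes. -/
noncomputable def inc (m : ℕ) (b : Fin m) (x : Bm m → ℝ) : ℝ :=
  (∑ s : Bm m, (if ∀ b' : Fin m, b' < b → s b' = 0 then (1 : ℝ) else 0) *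
      (if s b = 0 then (1 : ℝ) else -1) * x s) * (2 : ℝ) ^ (b : ℕ) / (2 : ℝ) ^ m

/-- The average of a function on `(Z/2)^m`. -/
noncomputable def mean (m : ℕ) (x : Bm m → ℝ) : ℝ := (∑ s : Bm m, x s) / (2 : ℝ) ^ m

theorem card_Bm (m : ℕ) : Fintype.card (Bm m) = 2 ^ m := by
  simp [ZMod.card]

theorem mean_le (m : ℕ) (x : Bm m → ℝ) (n : ℝ) (h : ∀ s, |x s| ≤ n) : |mean m x| ≤ n := by
  unfold mean
  have h2 : (0 : ℝ) < (2 : ℝ) ^ m := by positivity
  rw [abs_div, abs_of_pos h2, div_le_iff₀ h2]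
  calc |∑ s : Bm m, x s| ≤ ∑ s : Bm m, |x s| := Finset.abs_sum_le_sum_abs _ _
    _ ≤ ∑ _s : Bm m, n := Finset.sum_le_sum fun s _ => h s
    _ = n * (2 : ℝ) ^ m := by
        rw [Finset.sum_const, Finset.card_univ, card_Bm, nsmul_eq_mul]
        push_cast
        ring

/-- A sum over `m + 1` binary digits, split according to the first digit. -/
theorem sum_cons (m : ℕ) (h : Bm (m + 1) → ℝ) :
    ∑ s : Bm (m + 1), h s
      = ∑ s' : Bm m, h (Fin.cons 0 s') + ∑ s' : Bm m, h (Fin.cons 1 s') := by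
  rw [← Equiv.sum_comp (Fin.consEquiv (fun _ : Fin (m + 1) => ZMod 2)) h, Fintype.sum_prod_type]
  exact Fin.sum_univ_two (fun a : ZMod 2 => ∑ s' : Bm m, h (Fin.cons a s'))

theorem mean_succ (m : ℕ) (x : Bm (m + 1) → ℝ) :
    mean (m + 1) x = (mean m (fun s' => x (Fin.cons 0 s')) + mean m (fun s' => x (Fin.cons 1 s'))) / 2 := by
  unfold mean
  rw [sum_cons, pow_succ]
  have h2 : (2 : ℝ) ^ m ≠ 0 := by positivity
  field_simp

theorem inc_zero (m : ℕ) (x : Bm (m + 1) → ℝ) :
    inc (m + 1) 0 x = (mean m (fun s' => x (Fin.cons 0 s')) - mean m (fun s' => x (Fin.cons 1 s'))) / 2 := by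
  unfold inc mean
  rw [sum_cons, pow_succ]
  have h2 : (2 : ℝ) ^ m ≠ 0 := by positivity
  have hc : ∀ s : Bm (m + 1), (∀ b' : Fin (m + 1), b' < 0 → s b' = 0) = True := by
    intro s
    apply eq_true
    intro b' hb'
    exact absurd hb' (Fin.not_lt_zero b')
  have h10 : ¬ ((1 : ZMod 2) = 0) := by decide
  simp only [hc, if_true, Fin.cons_zero, Fin.val_zero, pow_zero, one_mul, mul_one, h10, if_false]
  rw [show (∑ s' : Bm m, x (Fin.cons 0 s')) + ∑ s' : Bm m, -1 * x (Fin.cons 1 s')
      = (∑ s' : Bm m, x (Fin.cons 0 s')) - ∑ s' : Bm m, x (Fin.cons 1 s') by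
    rw [← Finset.mul_sum]; ring]
  field_simp

theorem inc_succ (m : ℕ) (b : Fin m) (x : Bm (m + 1) → ℝ) :
    inc (m + 1) b.succ x = inc m b (fun s' => x (Fin.cons 0 s')) := by
  unfold inc
  rw [sum_cons]
  have hc0 : ∀ s' : Bm m, (∀ b' : Fin (m + 1), b' < b.succ → (Fin.cons 0 s' : Bm (m + 1)) b' = 0)
      ↔ (∀ b' : Fin m, b' < b → s' b' = 0) := by
    intro s'
    constructor
    · intro h b' hb'
      have := h b'.succ (Fin.succ_lt_succ_iff.mpr hb')
      simpa using this
    · intro h b' hb'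
      refine Fin.cases ?_ ?_ b' hb'
      · intro _
        simp
      · intro b'' hb''
        simp only [Fin.cons_succ]
        exact h b'' (Fin.succ_lt_succ_iff.mp hb'')
  have hc1 : ∀ s' : Bm m, ¬ (∀ b' : Fin (m + 1), b' < b.succ → (Fin.cons 1 s' : Bm (m + 1)) b' = 0) := by
    intro s' h
    have := h 0 (Fin.succ_pos b)
    simp at this
  simp only [hc0, hc1, if_false, zero_mul, Finset.sum_const_zero, add_zero, Fin.cons_succ,
    Fin.val_succ]
  rw [pow_succ, pow_succ]
  have h2 : (2 : ℝ) ^ m ≠ 0 := by positivity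
  field_simp

/-- The elementary inequality behind the constant `2^m - 1`: for a function on `(Z/2)^m`
bounded by `n`, the sum of the absolute increments between consecutive subcube averages plus
`2^m - 1` times the absolute value of the full average is at most `(2^m - 1) n`. -/
theorem subcube_ineq : ∀ (m : ℕ) (x : Bm m → ℝ) (n : ℝ), (∀ s, |x s| ≤ n) →
    ∑ b : Fin m, |inc m b x| + ((2 : ℝ) ^ m - 1) * |mean m x| ≤ ((2 : ℝ) ^ m - 1) * n := by
  intro m
  induction m with
  | zero =>
    intro x n _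
    simp
  | succ m ih =>
    intro x n hx
    rw [Fin.sum_univ_succ]
    simp only [inc_succ, inc_zero, mean_succ]
    set y : Bm m → ℝ := fun s' => x (Fin.cons 0 s') with hy
    set z : Bm m → ℝ := fun s' => x (Fin.cons 1 s') with hz
    have hIH := ih y n (fun s' => hx _)
    have hp := mean_le m y n (fun s' => hx _)
    have hq := mean_le m z n (fun s' => hx _)
    set p := mean m y with hpdef
    set q := mean m z with hqdef
    set V := ∑ b : Fin m, |inc m b y| with hV
    set K : ℝ := (2 : ℝ) ^ m - 1 with hK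
    have hK0 : 0 ≤ K := by
      have : (1 : ℝ) ≤ (2 : ℝ) ^ m := one_le_pow₀ (by norm_num)
      linarith
    have hK2 : (2 : ℝ) ^ (m + 1) - 1 = 2 * K + 1 := by
      rw [hK, pow_succ]
      ring
    rw [hK2]
    have hp' := abs_le.mp hp
    have hq' := abs_le.mp hq
    have e1 : |(p - q) / 2| = |p - q| / 2 := by
      rw [abs_div, abs_of_pos (by norm_num : (0 : ℝ) < 2)]
    have e2 : |(p + q) / 2| = |p + q| / 2 := by
      rw [abs_div, abs_of_pos (by norm_num : (0 : ℝ) < 2)]
    rw [e1, e2]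
    have m1 := mul_nonneg hK0 (sub_nonneg.mpr hp'.2)
    have m2 := mul_nonneg hK0 (by linarith [hp'.1] : (0 : ℝ) ≤ n + p)
    have m3 := mul_nonneg hK0 (sub_nonneg.mpr hq'.2)
    have m4 := mul_nonneg hK0 (by linarith [hq'.1] : (0 : ℝ) ≤ n + q)
    rcases abs_cases (p - q) with ⟨a1, _⟩ | ⟨a1, _⟩ <;>
    rcases abs_cases (p + q) with ⟨a2, _⟩ | ⟨a2, _⟩ <;>
    rcases abs_cases p with ⟨a3, _⟩ | ⟨a3, _⟩ <;>
    rw [a1, a2] <;> rw [a3] at hIH <;> nlinarith [m1, m2, m3, m4, hIH]

/-! ### Induction over the blocks -/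

theorem blocks_sum (m : ℕ) (K : ℝ) (hK : 0 ≤ K) : ∀ (k : ℕ) (c d n : Fin k → ℝ)
    (v : Fin k → Fin m → ℝ),
    (∀ i, 0 ≤ c i) → (∀ i, c i ≤ n i) → (∀ i, 0 ≤ d i) → (∀ i b, 0 ≤ v i b) →
    (∀ i, ∑ b : Fin m, v i b + K * d i ≤ K * n i) →
    ∑ i : Fin k, ∑ b : Fin m,
        (∏ i' : Fin k, (if i' < i then c i' else if i' = i then v i' b else d i'))
      ≤ K * ∏ i, n i := by
  intro k
  induction k with
  | zero =>
    intro c d n v _ _ _ _ _
    simp [hK]
  | succ k ih =>
    intro c d n v hc hcn hd hv0 hv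
    have hn : ∀ i, 0 ≤ n i := fun i => le_trans (hc i) (hcn i)
    rw [Fin.sum_univ_castSucc]
    have hterm : ∀ (w : Fin (k + 1) → ℝ) (i0 : Fin k),
        (∏ i' : Fin (k + 1), (if i' < Fin.castSucc i0 then c i' else
            if i' = Fin.castSucc i0 then w i' else d i'))
          = (∏ i' : Fin k, (if i' < i0 then c (Fin.castSucc i') else
              if i' = i0 then w (Fin.castSucc i') else d (Fin.castSucc i'))) * d (Fin.last k) := by
      intro w i0
      rw [Fin.prod_univ_castSucc]
      have h1 : ¬ (Fin.last k < Fin.castSucc i0) := not_lt.mpr (Fin.le_last _)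
      have h2 : Fin.last k ≠ Fin.castSucc i0 := (Fin.castSucc_lt_last i0).ne'
      rw [if_neg h1, if_neg h2]
      congr 1
      apply Finset.prod_congr rfl
      intro i' _
      simp only [Fin.castSucc_lt_castSucc_iff, Fin.castSucc_inj]
    have hlast : ∀ (w : Fin (k + 1) → ℝ),
        (∏ i' : Fin (k + 1), (if i' < Fin.last k then c i' else
            if i' = Fin.last k then w i' else d i'))
          = (∏ i' : Fin k, c (Fin.castSucc i')) * w (Fin.last k) := by
      intro w
      rw [Fin.prod_univ_castSucc]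
      rw [if_neg (lt_irrefl _), if_pos rfl]
      congr 1
      apply Finset.prod_congr rfl
      intro i' _
      rw [if_pos (Fin.castSucc_lt_last i')]
    have hterm' : ∀ (i0 : Fin k) (b : Fin m),
        (∏ i' : Fin (k + 1), (if i' < Fin.castSucc i0 then c i' else
            if i' = Fin.castSucc i0 then v i' b else d i'))
          = (∏ i' : Fin k, (if i' < i0 then c (Fin.castSucc i') else
              if i' = i0 then v (Fin.castSucc i') b else d (Fin.castSucc i'))) * d (Fin.last k) :=
      fun i0 b => hterm (fun i' => v i' b) i0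
    have hlast' : ∀ (b : Fin m),
        (∏ i' : Fin (k + 1), (if i' < Fin.last k then c i' else
            if i' = Fin.last k then v i' b else d i'))
          = (∏ i' : Fin k, c (Fin.castSucc i')) * v (Fin.last k) b :=
      fun b => hlast (fun i' => v i' b)
    simp only [hterm', hlast']
    have hIH := ih (fun i => c (Fin.castSucc i)) (fun i => d (Fin.castSucc i))
      (fun i => n (Fin.castSucc i)) (fun i => v (Fin.castSucc i))
      (fun i => hc _) (fun i => hcn _) (fun i => hd _) (fun i b => hv0 _ b) (fun i => hv _)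
    have hC : (∏ i' : Fin k, c (Fin.castSucc i')) ≤ ∏ i' : Fin k, n (Fin.castSucc i') :=
      Finset.prod_le_prod (fun i _ => hc _) (fun i _ => hcn _)
    have hP : 0 ≤ ∏ i' : Fin k, n (Fin.castSucc i') := Finset.prod_nonneg fun i _ => hn _
    rw [Fin.prod_univ_castSucc]
    have hsum : ∑ x : Fin k, ∑ b : Fin m,
        ((∏ i' : Fin k, (if i' < x then c (Fin.castSucc i') else
              if i' = x then v (Fin.castSucc i') b else d (Fin.castSucc i'))) * d (Fin.last k))
        = (∑ x : Fin k, ∑ b : Fin m,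
        (∏ i' : Fin k, (if i' < x then c (Fin.castSucc i') else
              if i' = x then v (Fin.castSucc i') b else d (Fin.castSucc i')))) * d (Fin.last k) := by
      rw [Finset.sum_mul]
      apply Finset.sum_congr rfl
      intro x _
      rw [Finset.sum_mul]
    rw [hsum, ← Finset.mul_sum]
    have hdl := hd (Fin.last k)
    have hVl : 0 ≤ ∑ b : Fin m, v (Fin.last k) b := Finset.sum_nonneg fun b _ => hv0 _ b
    have hvl := hv (Fin.last k)
    have e1 := mul_le_mul_of_nonneg_right hIH hdl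
    have e2 := mul_le_mul_of_nonneg_right hC hVl
    have e3 := mul_le_mul_of_nonneg_left hvl hP
    nlinarith [e1, e2, e3]

/-! ### One block -/

theorem Bm_add_cancel (m : ℕ) (u s : Bm m) : u + (u + s) = s := by
  funext i
  exact Vale.Agent.Helper19.P075Pair.z2_a (u i) (s i)

/-- Fibre average of the triangle product of one block over the fibre `a + b + c = s`. -/
noncomputable def Phi (m : ℕ) (p0 p1 p2 : Bm m → Bm m → ℝ) (s : Bm m) : ℝ :=
  (∑ a : Bm m, ∑ b : Bm m, p0 a b * p1 b (a + b + s) * p2 (a + b + s) a) / (4 : ℝ) ^ m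

/-- The `L^3` norm of a block function (normalised counting measure on the `4^m` points). -/
noncomputable def nb (m : ℕ) (p : Bm m → Bm m → ℝ) : ℝ :=
  ((∑ a : Bm m, ∑ b : Bm m, |p a b| ^ 3) / (4 : ℝ) ^ m) ^ ((1 : ℝ) / 3)

theorem nb_nonneg (m : ℕ) (p : Bm m → Bm m → ℝ) : 0 ≤ nb m p := by
  unfold nb
  apply Real.rpow_nonneg
  apply div_nonneg _ (by positivity)
  exact Finset.sum_nonneg fun a _ => Finset.sum_nonneg fun b _ => by positivity

/-- `(a, b) ↦ (b, a + b + s)`. -/
def e1 (m : ℕ) (s : Bm m) : Bm m × Bm m ≃ Bm m × Bm m where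
  toFun x := (x.2, x.1 + x.2 + s)
  invFun y := (y.1 + y.2 + s, y.1)
  left_inv x := by
    apply Prod.ext
    · funext i
      exact Vale.Agent.Helper19.P075Pair.z2_b (x.1 i) (x.2 i) (s i)
    · rfl
  right_inv y := by
    apply Prod.ext
    · rfl
    · funext i
      exact Vale.Agent.Helper19.P075Pair.z2_d (y.1 i) (y.2 i) (s i)

/-- `(a, b) ↦ (a + b + s, a)`. -/
def e2 (m : ℕ) (s : Bm m) : Bm m × Bm m ≃ Bm m × Bm m where
  toFun x := (x.1 + x.2 + s, x.1)
  invFun y := (y.2, y.1 + y.2 + s)
  left_inv x := by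
    apply Prod.ext
    · rfl
    · funext i
      exact Vale.Agent.Helper19.P075Pair.z2_d (x.1 i) (x.2 i) (s i)
  right_inv y := by
    apply Prod.ext
    · funext i
      exact Vale.Agent.Helper19.P075Pair.z2_b (y.1 i) (y.2 i) (s i)
    · rfl

/-- Hölder: every fibre average of a block is bounded by the product of the block norms. -/
theorem Phi_le (m : ℕ) (p0 p1 p2 : Bm m → Bm m → ℝ) (s : Bm m) :
    |Phi m p0 p1 p2 s| ≤ nb m p0 * nb m p1 * nb m p2 := by
  have h4 : (0 : ℝ) < (4 : ℝ) ^ m := by positivity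
  have h := Vale.Agent.Helper19.P075Pair.holder3 (ι := Bm m × Bm m) ((4 : ℝ) ^ m) h4
    (fun x => p0 x.1 x.2) (fun x => p1 x.2 (x.1 + x.2 + s)) (fun x => p2 (x.1 + x.2 + s) x.1)
  have hB : ∑ x : Bm m × Bm m, |p1 x.2 (x.1 + x.2 + s)| ^ 3
      = ∑ y : Bm m × Bm m, |p1 y.1 y.2| ^ 3 :=
    Equiv.sum_comp (e1 m s) (fun y : Bm m × Bm m => |p1 y.1 y.2| ^ 3)
  have hC : ∑ x : Bm m × Bm m, |p2 (x.1 + x.2 + s) x.1| ^ 3
      = ∑ y : Bm m × Bm m, |p2 y.1 y.2| ^ 3 :=
    Equiv.sum_comp (e2 m s) (fun y : Bm m × Bm m => |p2 y.1 y.2| ^ 3)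
  rw [hB, hC] at h
  simp only [Fintype.sum_prod_type] at h
  unfold Phi nb
  rw [abs_div, abs_of_pos h4]
  exact h

/-- The weighted triple sum of a block in terms of its fibre averages. -/
theorem blockSum_eq (m : ℕ) (w : Bm m → ℝ) (p0 p1 p2 : Bm m → Bm m → ℝ) :
    ∑ a : Bm m, ∑ b : Bm m, ∑ c : Bm m, w (a + b + c) * (p0 a b * p1 b c * p2 c a)
      = (4 : ℝ) ^ m * ∑ s : Bm m, w s * Phi m p0 p1 p2 s := by
  have h1 : ∀ a b : Bm m, ∑ c : Bm m, w (a + b + c) * (p0 a b * p1 b c * p2 c a)
      = ∑ s : Bm m, w s * (p0 a b * p1 b (a + b + s) * p2 (a + b + s) a) := by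
    intro a b
    rw [← Equiv.sum_comp (Equiv.addLeft (a + b))
      (fun c => w (a + b + c) * (p0 a b * p1 b c * p2 c a))]
    apply Finset.sum_congr rfl
    intro s _
    simp only [Equiv.coe_addLeft]
    rw [Bm_add_cancel]
  simp only [h1]
  have h2 : ∀ a : Bm m, ∑ b : Bm m, ∑ s : Bm m, w s * (p0 a b * p1 b (a + b + s) * p2 (a + b + s) a)
      = ∑ s : Bm m, ∑ b : Bm m, w s * (p0 a b * p1 b (a + b + s) * p2 (a + b + s) a) :=
    fun a => Finset.sum_comm
  simp only [h2]
  rw [Finset.sum_comm, Finset.mul_sum]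
  apply Finset.sum_congr rfl
  intro s _
  unfold Phi
  simp only [← Finset.mul_sum]
  have h4 : (4 : ℝ) ^ m ≠ 0 := by positivity
  field_simp

/-! ### Factorisation over the blocks -/

/-- Tensor product over consecutive blocks of `m` digits: the string `x` of length `k m` is cut
into the `k` blocks `(x (m i), ..., x (m i + m - 1))` and `blockTensor k m f x y` is the product
over `i` of `f i` evaluated at the `i`-th blocks of `x` and `y`. -/
noncomputable def blockTensor (k m : ℕ) (f : Fin k → Bm m → Bm m → ℝ) :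
    G (k * m) → G (k * m) → ℝ :=
  fun x y => ∏ i : Fin k,
    f i (fun b => x (finProdFinEquiv (i, b))) (fun b => y (finProdFinEquiv (i, b)))

/-- Reindexing of strings of length `k m` by blocks of `m` digits. -/
def blockEquiv (k m : ℕ) : G (k * m) ≃ (Fin k → Fin m → ZMod 2) :=
  (Equiv.arrowCongr finProdFinEquiv.symm (Equiv.refl _)).trans (Equiv.curry _ _ _)

theorem sum_prod_blocks (k m : ℕ) (g : Fin k → Bm m → ℝ) :
    ∑ t : G (k * m), ∏ i : Fin k, g i (fun b => t (finProdFinEquiv (i, b)))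
      = ∏ i : Fin k, ∑ v : Bm m, g i v := by
  rw [Fintype.prod_sum]
  exact Equiv.sum_comp (blockEquiv k m) (fun u => ∏ i, g i (u i))

theorem lead_iff (k m : ℕ) (i : Fin k) (b : Fin m) (t : G (k * m)) :
    Lead (k * m) ((finProdFinEquiv (i, b) : Fin (k * m)) : ℕ) t ↔
      ∀ i' : Fin k, (i' < i → ∀ b' : Fin m, t (finProdFinEquiv (i', b')) = 0)
        ∧ (i' = i → ∀ b' : Fin m, b' < b → t (finProdFinEquiv (i', b')) = 0) := by
  constructor
  · intro h i'
    refine ⟨fun hlt b' => h _ ?_, fun he b' hb' => h _ ?_⟩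
    · have h1 := Fin.lt_def.mp hlt
      have h2 := b'.isLt
      have h3 := Nat.mul_le_mul_left m (Nat.succ_le_of_lt h1)
      rw [Nat.mul_succ] at h3
      simp only [finProdFinEquiv_apply_val]
      omega
    · subst he
      have h1 := Fin.lt_def.mp hb'
      simp only [finProdFinEquiv_apply_val]
      omega
  · intro h i'' hlt
    obtain ⟨⟨i', b'⟩, rfl⟩ := finProdFinEquiv.surjective i''
    simp only [finProdFinEquiv_apply_val] at hlt
    have hb2 := b.isLt
    have hb2' := b'.isLt
    rcases lt_or_ge i' i with hlt' | hge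
    · exact (h i').1 hlt' b'
    · have hge' := Fin.le_def.mp hge
      have hie : i' = i := by
        apply Fin.ext
        by_contra hne
        have h5 : (i : ℕ) + 1 ≤ (i' : ℕ) := by omega
        have h3 := Nat.mul_le_mul_left m h5
        rw [Nat.mul_succ] at h3
        omega
      subst hie
      have hb : b' < b := by
        apply Fin.lt_def.mpr
        omega
      exact (h i').2 rfl b' hb

/-- The factor of block `i'` in the kernel of scale `(i, b)`. -/
def kfac (k m : ℕ) (i : Fin k) (b : Fin m) (i' : Fin k) (v : Bm m) : ℝ :=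
  (if (i' < i → ∀ b' : Fin m, v b' = 0) ∧ (i' = i → ∀ b' : Fin m, b' < b → v b' = 0)
    then (1 : ℝ) else 0) *
    (if i' = i then (if v b = 0 then (1 : ℝ) else -1) else 1)

theorem ker_factor (k m : ℕ) (i : Fin k) (b : Fin m) (t : G (k * m)) :
    ker (k * m) (finProdFinEquiv (i, b)) t =
      (2 : ℝ) ^ ((finProdFinEquiv (i, b) : Fin (k * m)) : ℕ) *
        ∏ i' : Fin k, kfac k m i b i' (fun b' => t (finProdFinEquiv (i', b'))) := by
  unfold kfac
  rw [Finset.prod_mul_distrib, Finset.prod_boole, Finset.prod_ite_eq']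
  unfold ker sgn
  have hL := lead_iff k m i b t
  by_cases hc : Lead (k * m) ((finProdFinEquiv (i, b) : Fin (k * m)) : ℕ) t
  · have hc' := hL.mp hc
    rw [if_pos hc, if_pos (fun i' _ => hc' i'), if_pos (Finset.mem_univ i)]
    ring
  · have hc' : ¬ (∀ i' ∈ (Finset.univ : Finset (Fin k)),
        (i' < i → ∀ b' : Fin m, t (finProdFinEquiv (i', b')) = 0)
        ∧ (i' = i → ∀ b' : Fin m, b' < b → t (finProdFinEquiv (i', b')) = 0)) := by
      intro h
      exact hc (hL.mpr (fun i' => h i' (Finset.mem_univ i')))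
    rw [if_neg hc, if_neg hc']
    ring

theorem sum3_prod_blocks (k m : ℕ) (g : Fin k → Bm m → Bm m → Bm m → ℝ) :
    ∑ x0 : G (k * m), ∑ x1 : G (k * m), ∑ x2 : G (k * m),
        ∏ i : Fin k, g i (fun b => x0 (finProdFinEquiv (i, b)))
          (fun b => x1 (finProdFinEquiv (i, b))) (fun b => x2 (finProdFinEquiv (i, b)))
      = ∏ i : Fin k, ∑ a : Bm m, ∑ b : Bm m, ∑ c : Bm m, g i a b c := by
  have h1 : ∀ x0 x1 : G (k * m), ∑ x2 : G (k * m),
        ∏ i : Fin k, g i (fun b => x0 (finProdFinEquiv (i, b)))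
          (fun b => x1 (finProdFinEquiv (i, b))) (fun b => x2 (finProdFinEquiv (i, b)))
      = ∏ i : Fin k, ∑ c : Bm m, g i (fun b => x0 (finProdFinEquiv (i, b)))
          (fun b => x1 (finProdFinEquiv (i, b))) c :=
    fun x0 x1 => sum_prod_blocks k m (fun i c => g i (fun b => x0 (finProdFinEquiv (i, b)))
          (fun b => x1 (finProdFinEquiv (i, b))) c)
  simp only [h1]
  have h2 : ∀ x0 : G (k * m), ∑ x1 : G (k * m),
        ∏ i : Fin k, ∑ c : Bm m, g i (fun b => x0 (finProdFinEquiv (i, b)))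
          (fun b => x1 (finProdFinEquiv (i, b))) c
      = ∏ i : Fin k, ∑ b' : Bm m, ∑ c : Bm m, g i (fun b => x0 (finProdFinEquiv (i, b))) b' c :=
    fun x0 => sum_prod_blocks k m
      (fun i b' => ∑ c : Bm m, g i (fun b => x0 (finProdFinEquiv (i, b))) b' c)
  simp only [h2]
  exact sum_prod_blocks k m (fun i a => ∑ b' : Bm m, ∑ c : Bm m, g i a b' c)

/-- The factor of block `i'` in the piece of scale `(i, b)`. -/
noncomputable def pfac (k m : ℕ) (f0 f1 f2 : Fin k → Bm m → Bm m → ℝ) (i : Fin k) (b : Fin m)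
    (i' : Fin k) : ℝ :=
  if i' < i then Phi m (f0 i') (f1 i') (f2 i') 0
  else if i' = i then inc m b (Phi m (f0 i') (f1 i') (f2 i'))
  else mean m (Phi m (f0 i') (f1 i') (f2 i'))

/-- The normalising constant of block `i'` at scale `(i, b)`. -/
noncomputable def nu (k m : ℕ) (i : Fin k) (b : Fin m) (i' : Fin k) : ℝ :=
  if i' < i then ((2 : ℝ) ^ m)⁻¹ else if i' = i then ((2 : ℝ) ^ (b : ℕ))⁻¹ else 1

theorem kfac_sum (k m : ℕ) (f0 f1 f2 : Fin k → Bm m → Bm m → ℝ) (i : Fin k) (b : Fin m)
    (i' : Fin k) :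
    (4 : ℝ) ^ m * ∑ s : Bm m, kfac k m i b i' s * Phi m (f0 i') (f1 i') (f2 i') s
      = (8 : ℝ) ^ m * (nu k m i b i' * pfac k m f0 f1 f2 i b i') := by
  have h8 : (8 : ℝ) ^ m = (4 : ℝ) ^ m * (2 : ℝ) ^ m := by
    rw [← mul_pow]
    norm_num
  have h2 : (2 : ℝ) ^ m ≠ 0 := by positivity
  have h4 : (4 : ℝ) ^ m ≠ 0 := by positivity
  rcases lt_trichotomy i' i with h | h | h
  · have hne : i' ≠ i := ne_of_lt h
    have key : ∀ s : Bm m, kfac k m i b i' s = if s = 0 then 1 else 0 := by
      intro s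
      unfold kfac
      have hz : (∀ b' : Fin m, s b' = 0) ↔ s = 0 := by
        constructor
        · intro h0
          funext b'
          exact h0 b'
        · intro h0 b'
          rw [h0]
          rfl
      by_cases hs : s = 0
      · rw [if_pos ⟨fun _ => hz.mpr hs, fun he => absurd he hne⟩, if_neg hne, if_pos hs]
        ring
      · rw [if_neg (fun hh => hs (hz.mp (hh.1 h))), if_neg hs]
        ring
    simp only [key, ite_mul, one_mul, zero_mul, Finset.sum_ite_eq', Finset.mem_univ, if_true]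
    unfold nu pfac
    rw [if_pos h, if_pos h, h8]
    field_simp
  · subst h
    have key : ∀ s : Bm m, kfac k m i' b i' s =
        (if ∀ b' : Fin m, b' < b → s b' = 0 then (1 : ℝ) else 0) *
          (if s b = 0 then (1 : ℝ) else -1) := by
      intro s
      unfold kfac
      rw [if_pos rfl]
      by_cases hs : ∀ b' : Fin m, b' < b → s b' = 0
      · rw [if_pos ⟨fun hh => absurd hh (lt_irrefl _), fun _ => hs⟩, if_pos hs]
      · rw [if_neg (fun hh => hs (hh.2 rfl)), if_neg hs]
    simp only [key]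
    unfold nu pfac inc
    rw [if_neg (lt_irrefl _), if_neg (lt_irrefl _), if_pos rfl, if_pos rfl, h8]
    have hb2 : (2 : ℝ) ^ (b : ℕ) ≠ 0 := by positivity
    field_simp
  · have hne : i' ≠ i := ne_of_gt h
    have hnl : ¬ i' < i := not_lt.mpr (le_of_lt h)
    have key : ∀ s : Bm m, kfac k m i b i' s = 1 := by
      intro s
      unfold kfac
      rw [if_pos ⟨fun hh => absurd hh hnl, fun he => absurd he hne⟩, if_neg hne]
      ring
    simp only [key, one_mul]
    unfold nu pfac mean
    rw [if_neg hnl, if_neg hnl, if_neg hne, if_neg hne, h8]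
    field_simp

theorem nu_prod (k m : ℕ) (i : Fin k) (b : Fin m) :
    (2 : ℝ) ^ ((finProdFinEquiv (i, b) : Fin (k * m)) : ℕ) * ∏ i' : Fin k, nu k m i b i' = 1 := by
  unfold nu
  rw [Vale.Agent.Helper19.P075Pair.prod_lt_eq]
  have hv : ((finProdFinEquiv (i, b) : Fin (k * m)) : ℕ) = (b : ℕ) + m * (i : ℕ) := by
    simp [finProdFinEquiv_apply_val]
  rw [hv, pow_add, pow_mul, inv_pow]
  have h1 : ((2 : ℝ) ^ m) ^ (i : ℕ) ≠ 0 := by positivity
  have h2 : (2 : ℝ) ^ (b : ℕ) ≠ 0 := by positivity
  field_simp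

/-- The piece of scale `(i, b)` of three block tensors is a product over the blocks. -/
theorem piece_block (k m : ℕ) (f0 f1 f2 : Fin k → Bm m → Bm m → ℝ) (i : Fin k) (b : Fin m) :
    piece (k * m) (finProdFinEquiv (i, b)) (blockTensor k m f0) (blockTensor k m f1)
        (blockTensor k m f2)
      = ∏ i' : Fin k, pfac k m f0 f1 f2 i b i' := by
  unfold piece
  have hA : ∀ x0 x1 x2 : G (k * m),
      ker (k * m) (finProdFinEquiv (i, b)) (x0 + x1 + x2) *
        (blockTensor k m f0 x0 x1 * blockTensor k m f1 x1 x2 * blockTensor k m f2 x2 x0)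
      = (2 : ℝ) ^ ((finProdFinEquiv (i, b) : Fin (k * m)) : ℕ) *
        ∏ i' : Fin k, (fun (i' : Fin k) (a b' c : Bm m) =>
            kfac k m i b i' (a + b' + c) * (f0 i' a b' * f1 i' b' c * f2 i' c a)) i'
          (fun b' => x0 (finProdFinEquiv (i', b'))) (fun b' => x1 (finProdFinEquiv (i', b')))
          (fun b' => x2 (finProdFinEquiv (i', b'))) := by
    intro x0 x1 x2
    rw [ker_factor]
    unfold blockTensor
    rw [← Finset.prod_mul_distrib, ← Finset.prod_mul_distrib, mul_assoc,
      ← Finset.prod_mul_distrib]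
    rfl
  simp only [hA]
  simp only [← Finset.mul_sum]
  have hS := sum3_prod_blocks k m (fun (i' : Fin k) (a b' c : Bm m) =>
    kfac k m i b i' (a + b' + c) * (f0 i' a b' * f1 i' b' c * f2 i' c a))
  beta_reduce at hS
  rw [hS]
  have hC : ∀ i' : Fin k, ∑ a : Bm m, ∑ b' : Bm m, ∑ c : Bm m,
      kfac k m i b i' (a + b' + c) * (f0 i' a b' * f1 i' b' c * f2 i' c a)
      = (8 : ℝ) ^ m * (nu k m i b i' * pfac k m f0 f1 f2 i b i') := by
    intro i'
    rw [blockSum_eq m (kfac k m i b i') (f0 i') (f1 i') (f2 i'), kfac_sum]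
  simp only [hC]
  rw [Finset.prod_mul_distrib, Finset.prod_mul_distrib, Finset.prod_const, Finset.card_univ,
    Fintype.card_fin]
  have h8 : (2 : ℝ) ^ (3 * (k * m)) = ((8 : ℝ) ^ m) ^ k := by
    rw [← pow_mul, show (8 : ℝ) = 2 ^ 3 by norm_num, ← pow_mul]
    congr 1
    ring
  rw [h8]
  have h0 : ((8 : ℝ) ^ m) ^ k ≠ 0 := by positivity
  have hn := nu_prod k m i b
  rw [mul_comm (((8 : ℝ) ^ m) ^ k) _, ← mul_assoc, ← mul_assoc, mul_div_assoc, div_self h0, mul_one,
    hn, one_mul]

/-- The `L^3` norm of a block tensor is the product of the block norms. -/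
theorem norm3_block (k m : ℕ) (f : Fin k → Bm m → Bm m → ℝ) :
    norm3 (k * m) (blockTensor k m f) = ∏ i : Fin k, nb m (f i) := by
  unfold norm3 blockTensor nb
  have h1 : ∀ x y : G (k * m),
      |∏ i : Fin k, f i (fun b => x (finProdFinEquiv (i, b))) (fun b => y (finProdFinEquiv (i, b)))| ^ 3
      = ∏ i : Fin k, (fun (i : Fin k) (u v : Bm m) => |f i u v| ^ 3) i
          (fun b => x (finProdFinEquiv (i, b))) (fun b => y (finProdFinEquiv (i, b))) := by
    intro x y
    rw [Finset.abs_prod, Finset.prod_pow]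
  simp only [h1]
  have h2 : ∀ x : G (k * m), ∑ y : G (k * m),
      ∏ i : Fin k, |f i (fun b => x (finProdFinEquiv (i, b))) (fun b => y (finProdFinEquiv (i, b)))| ^ 3
      = ∏ i : Fin k, ∑ v : Bm m, |f i (fun b => x (finProdFinEquiv (i, b))) v| ^ 3 :=
    fun x => sum_prod_blocks k m (fun i v => |f i (fun b => x (finProdFinEquiv (i, b))) v| ^ 3)
  simp only [h2]
  have h3 : ∑ x : G (k * m), ∏ i : Fin k, ∑ v : Bm m, |f i (fun b => x (finProdFinEquiv (i, b))) v| ^ 3
      = ∏ i : Fin k, ∑ u : Bm m, ∑ v : Bm m, |f i u v| ^ 3 :=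
    sum_prod_blocks k m (fun i u => ∑ v : Bm m, |f i u v| ^ 3)
  rw [h3]
  have h16 : (2 : ℝ) ^ (2 * (k * m)) = ∏ _i : Fin k, (4 : ℝ) ^ m := by
    rw [Finset.prod_const, Finset.card_univ, Fintype.card_fin, ← pow_mul,
      show (4 : ℝ) = 2 ^ 2 by norm_num, ← pow_mul]
    congr 1
    ring
  rw [h16, ← Finset.prod_div_distrib]
  rw [Real.finsetProd_rpow]
  intro i _
  apply div_nonneg _ (by positivity)
  exact Finset.sum_nonneg fun a _ => Finset.sum_nonneg fun b _ => by positivity

/-- The `L^3` bound with constant `2^m - 1` for all real tensors over blocks of `m` digits. -/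
theorem block_bound (k m : ℕ) (ε : Fin (k * m) → ℝ) (hε : ∀ j, |ε j| ≤ 1)
    (f0 f1 f2 : Fin k → Bm m → Bm m → ℝ) :
    |form (k * m) ε (blockTensor k m f0) (blockTensor k m f1) (blockTensor k m f2)|
      ≤ ((2 : ℝ) ^ m - 1) * (norm3 (k * m) (blockTensor k m f0)
        * norm3 (k * m) (blockTensor k m f1) * norm3 (k * m) (blockTensor k m f2)) := by
  rw [norm3_block, norm3_block, norm3_block, ← Finset.prod_mul_distrib, ← Finset.prod_mul_distrib]
  unfold form
  have hstep : |∑ j : Fin (k * m), ε j * piece (k * m) j (blockTensor k m f0) (blockTensor k m f1)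
        (blockTensor k m f2)|
      ≤ ∑ j : Fin (k * m), |piece (k * m) j (blockTensor k m f0) (blockTensor k m f1)
        (blockTensor k m f2)| := by
    refine le_trans (Finset.abs_sum_le_sum_abs _ _) (Finset.sum_le_sum fun j _ => ?_)
    rw [abs_mul]
    calc |ε j| * |piece (k * m) j (blockTensor k m f0) (blockTensor k m f1) (blockTensor k m f2)|
        ≤ 1 * |piece (k * m) j (blockTensor k m f0) (blockTensor k m f1) (blockTensor k m f2)| :=
          mul_le_mul_of_nonneg_right (hε j) (abs_nonneg _)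
      _ = _ := one_mul _
  refine le_trans hstep ?_
  rw [← Equiv.sum_comp finProdFinEquiv, Fintype.sum_prod_type]
  simp only [piece_block, Finset.abs_prod]
  set P : Fin k → Bm m → ℝ := fun i s => Phi m (f0 i) (f1 i) (f2 i) s with hP
  set n : Fin k → ℝ := fun i => nb m (f0 i) * nb m (f1 i) * nb m (f2 i) with hn
  have hPn : ∀ i s, |P i s| ≤ n i := fun i s => Phi_le m (f0 i) (f1 i) (f2 i) s
  have hK0 : (0 : ℝ) ≤ (2 : ℝ) ^ m - 1 := by
    have : (1 : ℝ) ≤ (2 : ℝ) ^ m := one_le_pow₀ (by norm_num)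
    linarith
  have hmain := blocks_sum m ((2 : ℝ) ^ m - 1) hK0 k (fun i => |P i 0|)
    (fun i => |mean m (P i)|) n (fun i b => |inc m b (P i)|)
    (fun i => abs_nonneg _) (fun i => hPn i _) (fun i => abs_nonneg _) (fun i b => abs_nonneg _)
    (fun i => subcube_ineq m (P i) (n i) (hPn i))
  refine le_trans (le_of_eq ?_) hmain
  apply Finset.sum_congr rfl
  intro i _
  apply Finset.sum_congr rfl
  intro b _
  apply Finset.prod_congr rfl
  intro i' _
  unfold pfac
  split_ifs <;> rfl

end Vale.Agent.Helper19.P075Block
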